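import Vale.Agent.P230.UpMain

namespace Vale.Agent.Results.P230.Full

open Vale.Agent.P230

theorem result : ∃ c C : ℝ, 0 < c ∧ 0 < C ∧ ∃ n₀ : ℕ, ∀ n : ℕ, n₀ ≤ n →
    ENNReal.ofReal (c * n * Real.log n) ≤ ThetaT n ∧ ThetaT n ≤ ThetaL n ∧
      ThetaL n ≤ ENNReal.ofReal (C * n * Real.log n) := by
  obtain ⟨C, hC, h⟩ := Up.upper
  refine ⟨1 / 10 ^ 11, C, by norm_num, hC, Filter.eventually_atTop.1 ?_⟩
  filter_upwards [h, lower_ThetaT] with n h1 h2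
  exact ⟨h2, ThetaT_le_ThetaL n, iSup₂_le h1⟩

end Vale.Agent.Results.P230.Full
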