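import Vale.Agent.P230.Lower

namespace Vale.Agent.Results.P230.LowerT

open Vale.Agent.P230
open scoped Pointwise

theorem result : ∃ c : ℝ, 0 < c ∧ ∃ n₀ : ℕ, ∀ n : ℕ, n₀ ≤ n →
    ∃ K : Set (Sp n), IsBody K ∧ -K = K ∧ ENNReal.ofReal (c * n * Real.log n) ≤ thetaT K :=
  ⟨1 / 10 ^ 11, by norm_num, Filter.eventually_atTop.1 lower_bound⟩

end Vale.Agent.Results.P230.LowerT
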